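/-
Every `l_infty`-sum `Z × W` of two nonzero real normed spaces has the Mazur-Ulam property
(helper80).  Inputs: Theorem A (a nonexpansive self map `Ξ` of a unit sphere with `‖x + Ξ x‖ = 2`
is the identity), oddness of sphere isometries, doubling, and the Mazur-Ulam theorem of Mathlib.

Write `a z = f (z, 0)` and `v w = f (0, w)`.
(1) `y z = a z + v w` is a unit vector, `z ↦ y z` is nonexpansive and `‖y z + a z‖ = 2`, so by
    Theorem A the first coordinate of `f⁻¹ (y z)` is `z`; by symmetry the second one is `w`.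
    Hence `f (z, w) = a z + v w`.
(2) `y = a z + r • v w` lies on the flat segment from `a z` to `f (z, w)`; Theorem A again says
    that `f⁻¹ y = (z, ξ)`, with `‖ξ‖ = r`, `‖w - ξ‖ = 1 - r`; then `w ↦ ξ / r` is an isometry of
    the sphere of `W` with `‖w + ξ / r‖ = 2`, so `ξ = r • w`.  So the radial extension `V` of `v`
    satisfies `f (z, x) = a z + V x` for `‖z‖ = 1`, `‖x‖ ≤ 1`, and `V` is isometric.
(3) `(V x₁ + V x₂) / 2` is in the range of `V` by Theorem A once more; the range is a subspace and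
    `V` is linear by Mazur-Ulam.  By symmetry the radial extension `A` of `a` is linear.
(4) `f = A + V` on the sphere.
-/
import Vale.Agent.Lib.P084.Inf.Cofacial

namespace Vale.Agent.Lib.P084.MSum

open Vale.Agent.Lib.P084.UC Vale.Agent.Lib.P084.Inf

variable {Z W Y : Type*} [NormedAddCommGroup Z] [NormedSpace ℝ Z] [NormedAddCommGroup W]
  [NormedSpace ℝ W] [NormedAddCommGroup Y] [NormedSpace ℝ Y]

omit [NormedSpace ℝ Z] [NormedSpace ℝ W] in
theorem norm_prod (a : Z) (b : W) : ‖((a, b) : Z × W)‖ = max ‖a‖ ‖b‖ := Prod.norm_def _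

omit [NormedSpace ℝ Z] [NormedSpace ℝ W] in
theorem norm_left {z : Z} {x : W} (hz : ‖z‖ = 1) (hx : ‖x‖ ≤ 1) : ‖((z, x) : Z × W)‖ = 1 := by
  rw [norm_prod, hz, max_eq_left hx]

omit [NormedSpace ℝ Z] [NormedSpace ℝ W] in
theorem norm_right {z : Z} {x : W} (hz : ‖z‖ ≤ 1) (hx : ‖x‖ = 1) : ‖((z, x) : Z × W)‖ = 1 := by
  rw [norm_prod, hx, max_eq_right hz]

theorem exists_unit (Z : Type*) [NormedAddCommGroup Z] [NormedSpace ℝ Z] [Nontrivial Z] :
    ∃ z : Z, ‖z‖ = 1 := by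
  obtain ⟨z, hz⟩ := exists_ne (0 : Z)
  exact ⟨_, norm_inv_smul hz⟩

set_option linter.unusedSectionVars false

/-- A surjective sphere isometry of `Z × W` with a chosen inverse. -/
structure SI (f : Z × W → Y) (g : Y → Z × W) : Prop where
  hf : IsSphereIso f
  g1 : ∀ y : Y, ‖y‖ = 1 → ‖g y‖ = 1
  g2 : ∀ y : Y, ‖y‖ = 1 → f (g y) = y

namespace SI

variable {f : Z × W → Y} {g : Y → Z × W}

theorem odd (D : SI f g) {x : Z × W} (hx : ‖x‖ = 1) : f (-x) = -f x :=
  odd_of_isSphereIso D.hf hx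

theorem odd' (D : SI f g) {a : Z} {b : W} (hx : ‖((a, b) : Z × W)‖ = 1) :
    f (-a, -b) = -f (a, b) := by
  have := D.odd hx
  simpa using this

/-- The swapped sphere isometry. -/
theorem swap (D : SI f g) :
    SI (fun p : W × Z => f (p.2, p.1)) (fun y => ((g y).2, (g y).1)) := by
  have hn : ∀ p : W × Z, ‖((p.2, p.1) : Z × W)‖ = ‖p‖ := fun p => by
    rw [norm_prod, Prod.norm_def, max_comm]
  refine ⟨⟨fun p hp => D.hf.norm_eq _ (by rw [hn]; exact hp), fun p q hp hq => ?_,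
    fun y hy => ?_⟩, fun y hy => ?_, fun y hy => ?_⟩
  · rw [D.hf.iso _ _ (by rw [hn]; exact hp) (by rw [hn]; exact hq)]
    have e : ((p.2, p.1) : Z × W) - (q.2, q.1) = ((p - q).2, (p - q).1) := rfl
    rw [e, hn]
  · refine ⟨((g y).2, (g y).1), ?_, ?_⟩
    · have := hn ((g y).2, (g y).1)
      simp only at this
      rw [← this]
      simpa using D.g1 y hy
    · simpa using D.g2 y hy
  · have := hn ((g y).2, (g y).1)
    simp only at this
    rw [← this]
    simpa using D.g1 y hy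
  · simpa using D.g2 y hy

/-- The basic use of Theorem A: a nonexpansive family of unit vectors `y z` with
`‖y z + f (z, 0)‖ = 2` has `(f⁻¹ (y z)).1 = z`. -/
theorem fst_fix (D : SI f g) (y : Z → Y) (h1 : ∀ z : Z, ‖z‖ = 1 → ‖y z‖ = 1)
    (h2 : ∀ a b : Z, ‖a‖ = 1 → ‖b‖ = 1 → ‖y a - y b‖ ≤ ‖a - b‖)
    (h3 : ∀ z : Z, ‖z‖ = 1 → ‖y z + f (z, 0)‖ = 2) {z : Z} (hz : ‖z‖ = 1) :
    (g (y z)).1 = z := by
  have hcof : ∀ z : Z, ‖z‖ = 1 → ‖z + (g (y z)).1‖ = 2 := by
    intro z hz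
    have hs := D.g1 _ (h1 z hz)
    have hfs := D.g2 _ (h1 z hz)
    have ht : ‖((z, 0) : Z × W)‖ = 1 := norm_left hz (by simp)
    have ht' : ‖((-z, 0) : Z × W)‖ = 1 := norm_left (by simpa using hz) (by simp)
    have e1 := D.hf.iso _ _ hs ht'
    have e2 : f (-z, 0) = -f (z, 0) := by
      have := D.odd ht
      simpa using this
    rw [hfs, e2, sub_neg_eq_add, h3 z hz] at e1
    have e3 : g (y z) - (-z, 0) = ((g (y z)).1 + z, (g (y z)).2) := by
      ext <;> simp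
    rw [e3, norm_prod] at e1
    have h4 : ‖(g (y z)).2‖ ≤ 1 := by
      have := norm_snd_le (g (y z))
      rwa [hs] at this
    have h5 : ‖(g (y z)).1 + z‖ = 2 := by
      rcases max_choice ‖(g (y z)).1 + z‖ ‖(g (y z)).2‖ with h | h
      · rw [h] at e1; exact e1.symm
      · rw [h] at e1; linarith
    rw [add_comm]; exact h5
  refine eq_self_of_cofacial (Ξ := fun z => (g (y z)).1) (fun z hz => ?_) (fun a b ha hb => ?_)
    hcof hz
  · have h4 : ‖(g (y z)).1‖ ≤ 1 := by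
      have := norm_fst_le (g (y z))
      rwa [D.g1 _ (h1 z hz)] at this
    have h5 := norm_add_le z (g (y z)).1
    rw [hcof z hz, hz] at h5
    linarith
  · have e1 := D.hf.iso _ _ (D.g1 _ (h1 a ha)) (D.g1 _ (h1 b hb))
    rw [D.g2 _ (h1 a ha), D.g2 _ (h1 b hb)] at e1
    have e2 : (g (y a)).1 - (g (y b)).1 = (g (y a) - g (y b)).1 := rfl
    rw [e2]
    calc _ ≤ ‖g (y a) - g (y b)‖ := norm_fst_le _
      _ = ‖y a - y b‖ := e1.symm
      _ ≤ _ := h2 a b ha hb

theorem norm_a_sub (D : SI f g) {a b : Z} (ha : ‖a‖ = 1) (hb : ‖b‖ = 1) :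
    ‖f (a, 0) - f (b, 0)‖ = ‖a - b‖ := by
  rw [D.hf.iso _ _ (norm_left ha (by simp)) (norm_left hb (by simp))]
  have e : ((a, 0) : Z × W) - (b, 0) = (a - b, 0) := by ext <;> simp
  rw [e, norm_prod]
  simp

theorem norm_v_sub (D : SI f g) {a b : W} (ha : ‖a‖ = 1) (hb : ‖b‖ = 1) :
    ‖f (0, a) - f (0, b)‖ = ‖a - b‖ := by
  rw [D.hf.iso _ _ (norm_right (by simp) ha) (norm_right (by simp) hb)]
  have e : ((0, a) : Z × W) - (0, b) = (0, a - b) := by ext <;> simp
  rw [e, norm_prod]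
  simp

theorem f_zero_neg (D : SI f g) {w : W} (hw : ‖w‖ = 1) : f (0, -w) = -f (0, w) := by
  have := D.odd (x := (0, w)) (norm_right (by simp) hw)
  simpa using this

theorem f_neg_zero (D : SI f g) {z : Z} (hz : ‖z‖ = 1) : f (-z, 0) = -f (z, 0) := by
  have := D.odd (x := (z, 0)) (norm_left hz (by simp))
  simpa using this

/-- First coordinate at a corner. -/
theorem corner_fst (D : SI f g) {w : W} (hw : ‖w‖ = 1) {z : Z} (hz : ‖z‖ = 1) :
    (g (f (z, 0) + f (0, w))).1 = z := by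
  refine D.fst_fix (fun z => f (z, 0) + f (0, w)) (fun z hz => ?_) (fun a b ha hb => ?_)
    (fun z hz => ?_) hz
  · have hw' : ‖-w‖ = 1 := by simpa using hw
    have e := D.hf.iso (z, 0) (0, -w) (norm_left hz (by simp)) (norm_right (by simp) hw')
    rw [D.f_zero_neg hw, sub_neg_eq_add] at e
    rw [e]
    have e2 : ((z, 0) : Z × W) - (0, -w) = (z, w) := by ext <;> simp
    rw [e2]
    exact norm_left hz hw.le
  · simp only [add_sub_add_right_eq_sub]
    rw [D.norm_a_sub ha hb]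
  · have hw' : ‖-w‖ = 1 := by simpa using hw
    have hx : ‖((z, 0) : Z × W)‖ = 1 := norm_left hz (by simp)
    have hy : ‖((0, -w) : Z × W)‖ = 1 := norm_right (by simp) hw'
    have hyx : ‖((0, -w) : Z × W) - (z, 0)‖ = 1 := by
      have e2 : ((0, -w) : Z × W) - (z, 0) = (-z, -w) := by ext <;> simp
      rw [e2]
      exact norm_left (by simpa using hz) hw'.le
    have hd := D.hf.doubling hx hy hyx
    rw [D.f_zero_neg hw] at hd
    have e3 : ((z, 0) : Z × W) - (1 / 2 : ℝ) • (0, -w) = (z, (1 / 2 : ℝ) • w) := by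
      ext <;> simp
    rw [e3, norm_left hz (by rw [norm_smul, hw]; norm_num)] at hd
    have e4 : f (z, 0) + f (0, w) + f (z, 0) =
        (2 : ℝ) • (f (z, 0) - (1 / 2 : ℝ) • -f (0, w)) := by
      module
    rw [e4, norm_smul, hd]
    norm_num

/-- Additivity at corners. -/
theorem corner (D : SI f g) {z : Z} (hz : ‖z‖ = 1) {w : W} (hw : ‖w‖ = 1) :
    f (z, w) = f (z, 0) + f (0, w) := by
  have h1 := D.corner_fst hw hz
  have h2 := D.swap.corner_fst hz hw
  simp only at h2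
  rw [add_comm] at h2
  have hu : ‖f (z, 0) + f (0, w)‖ = 1 := by
    have hw' : ‖-w‖ = 1 := by simpa using hw
    have e := D.hf.iso (z, 0) (0, -w) (norm_left hz (by simp)) (norm_right (by simp) hw')
    rw [D.f_zero_neg hw, sub_neg_eq_add] at e
    rw [e]
    have e2 : ((z, 0) : Z × W) - (0, -w) = (z, w) := by ext <;> simp
    rw [e2]
    exact norm_left hz hw.le
  have h3 : g (f (z, 0) + f (0, w)) = (z, w) := Prod.ext h1 h2
  have h4 := D.g2 _ hu
  rw [h3] at h4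
  exact h4

theorem norm_add_same (D : SI f g) {z : Z} (hz : ‖z‖ = 1) {x x' : W} (hx : ‖x‖ ≤ 1)
    (hx' : ‖x'‖ ≤ 1) : ‖f (z, x) + f (z, x')‖ = 2 := by
  have h1 : ‖((z, x') : Z × W)‖ = 1 := norm_left hz hx'
  have h2 : ‖((-z, -x') : Z × W)‖ = 1 := norm_left (by simpa using hz) (by simpa using hx')
  have e := D.hf.iso (z, x) (-z, -x') (norm_left hz hx) h2
  rw [D.odd' h1, sub_neg_eq_add] at e
  rw [e]
  have e2 : ((z, x) : Z × W) - (-z, -x') = ((2 : ℝ) • z, x + x') := by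
    ext
    · simp [two_smul]
    · simp
  rw [e2, norm_prod, norm_smul, hz]
  have h3 : ‖x + x'‖ ≤ 2 := by
    have := norm_add_le x x'
    linarith
  simp only [Real.norm_eq_abs, abs_two, mul_one]
  exact max_eq_left h3

theorem seg_facts (D : SI f g) {z : Z} (hz : ‖z‖ = 1) {w : W} (hw : ‖w‖ = 1) {r : ℝ}
    (hr0 : 0 ≤ r) (hr1 : r ≤ 1) :
    ‖f (z, 0) + r • f (0, w)‖ = 1 ∧ ‖f (z, 0) + r • f (0, w) + f (z, 0)‖ = 2 := by
  have ha : ‖f (z, 0)‖ = 1 := D.hf.norm_eq _ (norm_left hz (by simp))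
  have hb : ‖f (z, w)‖ = 1 := D.hf.norm_eq _ (norm_left hz hw.le)
  have hab : ‖f (z, 0) + f (z, w)‖ = 2 := D.norm_add_same hz (by simp) hw.le
  constructor
  · have := norm_comb_eq_one ha hb hab (s := 1 - r) (t := r) (by linarith) hr0 (by ring)
    rw [D.corner hz hw] at this
    have e : (1 - r) • f (z, 0) + r • (f (z, 0) + f (0, w)) = f (z, 0) + r • f (0, w) := by module
    rwa [e] at this
  · have := norm_comb_eq_one ha hb hab (s := 1 - r / 2) (t := r / 2) (by linarith) (by linarith)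
      (by ring)
    rw [D.corner hz hw] at this
    have e : f (z, 0) + r • f (0, w) + f (z, 0) =
        (2 : ℝ) • ((1 - r / 2) • f (z, 0) + (r / 2) • (f (z, 0) + f (0, w))) := by
      module
    rw [e, norm_smul, this]
    norm_num

/-- The segment `a z + r • v w` has first coordinate `z`. -/
theorem seg_fst (D : SI f g) {z : Z} (hz : ‖z‖ = 1) {w : W} (hw : ‖w‖ = 1) {r : ℝ}
    (hr0 : 0 ≤ r) (hr1 : r ≤ 1) : (g (f (z, 0) + r • f (0, w))).1 = z := by
  refine D.fst_fix (fun z => f (z, 0) + r • f (0, w)) (fun z hz => ?_) (fun a b ha hb => ?_)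
    (fun z hz => ?_) hz
  · exact (D.seg_facts hz hw hr0 hr1).1
  · simp only [add_sub_add_right_eq_sub]
    rw [D.norm_a_sub ha hb]
  · exact (D.seg_facts hz hw hr0 hr1).2

/-- The radial formula. -/
theorem radial (D : SI f g) {z : Z} (hz : ‖z‖ = 1) {w : W} (hw : ‖w‖ = 1) {r : ℝ}
    (hr0 : 0 ≤ r) (hr1 : r ≤ 1) : f (z, r • w) = f (z, 0) + r • f (0, w) := by
  rcases hr0.eq_or_lt with rfl | hr
  · simp
  -- the point `ξ`
  let ξ : W → W := fun w => (g (f (z, 0) + r • f (0, w))).2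
  have hgy : ∀ w : W, ‖w‖ = 1 → g (f (z, 0) + r • f (0, w)) = (z, ξ w) := fun w hw =>
    Prod.ext (D.seg_fst hz hw hr0 hr1) rfl
  have hu : ∀ w : W, ‖w‖ = 1 → ‖f (z, 0) + r • f (0, w)‖ = 1 := fun w hw =>
    (D.seg_facts hz hw hr0 hr1).1
  have hfy : ∀ w : W, ‖w‖ = 1 → f (z, ξ w) = f (z, 0) + r • f (0, w) := fun w hw => by
    have := D.g2 _ (hu w hw)
    rwa [hgy w hw] at this
  have hun : ∀ w : W, ‖w‖ = 1 → ‖((z, ξ w) : Z × W)‖ = 1 := fun w hw => by
    have := D.g1 _ (hu w hw)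
    rwa [hgy w hw] at this
  have hvw : ∀ w : W, ‖w‖ = 1 → ‖f (0, w)‖ = 1 := fun w hw =>
    D.hf.norm_eq _ (norm_right (by simp) hw)
  have hξ1 : ∀ w : W, ‖w‖ = 1 → ‖ξ w‖ = r := by
    intro w hw
    have e := D.hf.iso _ _ (hun w hw) (norm_left hz (x := (0 : W)) (by simp))
    rw [hfy w hw] at e
    have e2 : ((z, ξ w) : Z × W) - (z, 0) = (0, ξ w) := by ext <;> simp
    rw [e2, norm_prod] at e
    simp only [add_sub_cancel_left, norm_smul, hvw w hw, mul_one, Real.norm_eq_abs,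
      abs_of_nonneg hr0, norm_zero] at e
    rw [max_eq_right (norm_nonneg _)] at e
    exact e.symm
  have hξ2 : ∀ w : W, ‖w‖ = 1 → ‖w - ξ w‖ ≤ 1 - r := by
    intro w hw
    have e := D.hf.iso _ _ (hun w hw) (norm_left hz (x := w) hw.le)
    rw [hfy w hw, D.corner hz hw] at e
    have e2 : ((z, ξ w) : Z × W) - (z, w) = (0, ξ w - w) := by ext <;> simp
    rw [e2, norm_prod] at e
    have e3 : f (z, 0) + r • f (0, w) - (f (z, 0) + f (0, w)) = (r - 1) • f (0, w) := by module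
    rw [e3, norm_smul, hvw w hw, mul_one, Real.norm_eq_abs, abs_of_nonpos (by linarith),
      norm_zero, max_eq_right (norm_nonneg _)] at e
    rw [norm_sub_rev]
    linarith
  -- Theorem A on the sphere of `W`
  have hA : (r⁻¹) • ξ w = w := by
    refine eq_self_of_cofacial (Ξ := fun w => r⁻¹ • ξ w) (fun w hw => ?_) (fun a b ha hb => ?_)
      (fun w hw => ?_) hw
    · rw [norm_smul, hξ1 w hw, norm_inv, Real.norm_eq_abs, abs_of_pos hr, inv_mul_cancel₀ hr.ne']
    · have e := D.hf.iso _ _ (hun a ha) (hun b hb)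
      rw [hfy a ha, hfy b hb] at e
      have e2 : ((z, ξ a) : Z × W) - (z, ξ b) = (0, ξ a - ξ b) := by ext <;> simp
      rw [e2, norm_prod] at e
      have e3 : f (z, 0) + r • f (0, a) - (f (z, 0) + r • f (0, b)) = r • (f (0, a) - f (0, b)) := by
        module
      rw [e3, norm_smul, D.norm_v_sub ha hb, Real.norm_eq_abs, abs_of_pos hr, norm_zero,
        max_eq_right (norm_nonneg _)] at e
      have e4 : r⁻¹ • ξ a - r⁻¹ • ξ b = r⁻¹ • (ξ a - ξ b) := by module
      rw [e4, norm_smul, ← e, norm_inv, Real.norm_eq_abs, abs_of_pos hr, inv_mul_cancel_left₀ hr.ne']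
    · apply le_antisymm
      · calc _ ≤ ‖w‖ + ‖r⁻¹ • ξ w‖ := norm_add_le _ _
          _ = 2 := by
            rw [hw, norm_smul, hξ1 w hw, norm_inv, Real.norm_eq_abs, abs_of_pos hr,
              inv_mul_cancel₀ hr.ne']
            norm_num
      · have e1 : (1 + r) • w = (r • w + ξ w) + (w - ξ w) := by module
        have e2 : ‖(1 + r) • w‖ = 1 + r := by
          rw [norm_smul, hw, Real.norm_eq_abs, abs_of_nonneg (by linarith)]
          ring
        have e3 : ‖r • w + ξ w‖ ≥ 2 * r := by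
          have := norm_add_le (r • w + ξ w) (w - ξ w)
          rw [← e1, e2] at this
          have := hξ2 w hw
          linarith
        have e4 : r • w + ξ w = r • (w + r⁻¹ • ξ w) := by
          rw [smul_add, smul_smul, mul_inv_cancel₀ hr.ne', one_smul]
        rw [e4, norm_smul, Real.norm_eq_abs, abs_of_pos hr] at e3
        have : r * 2 ≤ r * ‖w + r⁻¹ • ξ w‖ := by linarith
        exact le_of_mul_le_mul_left this hr
  have hξ : ξ w = r • w := by
    have := congrArg (fun u => r • u) hA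
    simpa [smul_smul, mul_inv_cancel₀ hr.ne'] using this
  rw [← hξ]
  exact hfy w hw

end SI

/-- Radial extension. -/
noncomputable def rad (h : W → Y) (x : W) : Y := ‖x‖ • h (‖x‖⁻¹ • x)

theorem rad_zero (h : W → Y) : rad h 0 = 0 := by simp [rad]

theorem rad_unit (h : W → Y) {x : W} (hx : ‖x‖ = 1) : rad h x = h x := by
  simp [rad, hx]

theorem rad_pos (h : W → Y) {s : ℝ} (hs : 0 < s) (x : W) : rad h (s • x) = s • rad h x := by
  by_cases hx : x = 0
  · subst hx; simp [rad_zero]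
  have hn : ‖s • x‖ = s * ‖x‖ := by rw [norm_smul, Real.norm_eq_abs, abs_of_pos hs]
  have hx' : ‖x‖ ≠ 0 := norm_ne_zero_iff.mpr hx
  have e : ‖s • x‖⁻¹ • (s • x) = ‖x‖⁻¹ • x := by
    rw [hn, smul_smul, mul_inv_rev]
    congr 1
    field_simp
  unfold rad
  rw [e, hn, mul_smul]

namespace SI

variable {f : Z × W → Y} {g : Y → Z × W}

/-- The radial extension of `v`. -/
noncomputable def V (f : Z × W → Y) : W → Y := rad (fun w => f (0, w))

theorem f_eq (D : SI f g) {z : Z} (hz : ‖z‖ = 1) {x : W} (hx : ‖x‖ ≤ 1) :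
    f (z, x) = f (z, 0) + V f x := by
  by_cases h0 : x = 0
  · subst h0; simp [V, rad_zero]
  have hw : ‖‖x‖⁻¹ • x‖ = 1 := norm_inv_smul h0
  have h1 := D.radial hz hw (norm_nonneg x) hx
  have h2 : ‖x‖ • ‖x‖⁻¹ • x = x := by
    rw [smul_smul, mul_inv_cancel₀ (norm_ne_zero_iff.mpr h0), one_smul]
  rw [h2] at h1
  exact h1

theorem V_neg (D : SI f g) (x : W) : V f (-x) = -V f x := by
  by_cases h0 : x = 0
  · subst h0; simp [V, rad_zero]
  have hw : ‖‖x‖⁻¹ • x‖ = 1 := norm_inv_smul h0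
  have e : ‖x‖⁻¹ • (-x) = -(‖x‖⁻¹ • x) := smul_neg _ _
  have h := D.f_zero_neg hw
  simp only [V, rad, norm_neg]
  rw [e, h, smul_neg]

theorem V_smul (D : SI f g) (s : ℝ) (x : W) : V f (s • x) = s • V f x := by
  rcases lt_trichotomy s 0 with hs | rfl | hs
  · have e : s • x = -((-s) • x) := by simp
    rw [e, D.V_neg]
    have : V f ((-s) • x) = (-s) • V f x := rad_pos _ (by linarith) x
    rw [this]
    simp
  · simp [V, rad_zero]
  · exact rad_pos _ hs x

theorem V_iso_ball (D : SI f g) {z : Z} (hz : ‖z‖ = 1) {x x' : W} (hx : ‖x‖ ≤ 1) (hx' : ‖x'‖ ≤ 1) :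
    ‖V f x - V f x'‖ = ‖x - x'‖ := by
  have e := D.hf.iso _ _ (norm_left hz hx) (norm_left hz hx')
  rw [D.f_eq hz hx, D.f_eq hz hx', add_sub_add_left_eq_sub] at e
  rw [e]
  have e2 : ((z, x) : Z × W) - (z, x') = (0, x - x') := by ext <;> simp
  rw [e2, norm_prod]
  simp

theorem scale_bound (x x' : W) :
    ‖(1 + ‖x‖ + ‖x'‖)⁻¹ • x‖ ≤ 1 ∧ ‖(1 + ‖x‖ + ‖x'‖)⁻¹ • x'‖ ≤ 1 := by
  have h0 : 0 < 1 + ‖x‖ + ‖x'‖ := by positivity
  constructor
  · rw [norm_smul, norm_inv, Real.norm_eq_abs, abs_of_pos h0, inv_mul_le_iff₀ h0]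
    have := norm_nonneg x'
    linarith
  · rw [norm_smul, norm_inv, Real.norm_eq_abs, abs_of_pos h0, inv_mul_le_iff₀ h0]
    have := norm_nonneg x
    linarith

theorem V_iso (D : SI f g) {z : Z} (hz : ‖z‖ = 1) (x x' : W) : ‖V f x - V f x'‖ = ‖x - x'‖ := by
  set s : ℝ := (1 + ‖x‖ + ‖x'‖)⁻¹ with hs
  have h0 : 0 < s := by positivity
  obtain ⟨h1, h2⟩ := scale_bound x x'
  have e := D.V_iso_ball hz h1 h2
  rw [D.V_smul, D.V_smul] at e
  have e3 : s • V f x - s • V f x' = s • (V f x - V f x') := by module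
  have e4 : s • x - s • x' = s • (x - x') := by module
  rw [e3, e4, norm_smul, norm_smul, Real.norm_eq_abs, abs_of_pos h0] at e
  exact mul_left_cancel₀ h0.ne' e

theorem V_mid (D : SI f g) {z0 : Z} (hz0 : ‖z0‖ = 1) {x₁ x₂ : W} (h₁ : ‖x₁‖ ≤ 1) (h₂ : ‖x₂‖ ≤ 1) :
    ∃ ξ : W, (1 / 2 : ℝ) • (V f x₁ + V f x₂) = V f ξ := by
  set m : Y := (1 / 2 : ℝ) • (V f x₁ + V f x₂) with hm
  have hy : ∀ z : Z, ‖z‖ = 1 → f (z, 0) + m = (1 / 2 : ℝ) • f (z, x₁) + (1 / 2 : ℝ) • f (z, x₂) := by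
    intro z hz
    rw [D.f_eq hz h₁, D.f_eq hz h₂, hm]
    module
  have hu : ∀ z : Z, ‖z‖ = 1 → ‖f (z, 0) + m‖ = 1 := by
    intro z hz
    rw [hy z hz]
    exact norm_comb_eq_one (D.hf.norm_eq _ (norm_left hz h₁)) (D.hf.norm_eq _ (norm_left hz h₂))
      (D.norm_add_same hz h₁ h₂) (by norm_num) (by norm_num) (by norm_num)
  have hfst : (g (f (z0, 0) + m)).1 = z0 := by
    refine D.fst_fix (fun z => f (z, 0) + m) hu (fun a b ha hb => ?_) (fun z hz => ?_) hz0
    · simp only [add_sub_add_right_eq_sub]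
      rw [D.norm_a_sub ha hb]
    · have hhalf : ‖(1 / 2 : ℝ) • x₁‖ ≤ 1 := by
        rw [norm_smul]; norm_num; linarith
      have hn : f (z, (1 / 2 : ℝ) • x₁) = (1 / 2 : ℝ) • f (z, 0) + (1 / 2 : ℝ) • f (z, x₁) := by
        rw [D.f_eq hz hhalf, D.f_eq hz h₁, D.V_smul]
        module
      have hsum := D.norm_add_same hz hhalf h₂
      have hne : f (z, (1 / 2 : ℝ) • x₁) + f (z, x₂) ≠ 0 := by
        intro h
        rw [h, norm_zero] at hsum
        norm_num at hsum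
      obtain ⟨θ, hθ1, hθ2⟩ := exists_dual_vector ℝ _ (norm_ne_zero_iff.mpr hne)
      have hle : ∀ u : Y, ‖u‖ = 1 → θ u ≤ 1 := fun u hu =>
        (le_abs_self _).trans ((θ.le_opNorm u).trans_eq (by rw [hθ1, hu, one_mul]))
      have ha := hle _ (D.hf.norm_eq (z, 0) (norm_left hz (by simp)))
      have hb := hle _ (D.hf.norm_eq (z, x₁) (norm_left hz h₁))
      have hc := hle _ (D.hf.norm_eq (z, x₂) (norm_left hz h₂))
      have hd := hle _ (D.hf.norm_eq (z, (1 / 2 : ℝ) • x₁) (norm_left hz hhalf))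
      have hval : θ (f (z, (1 / 2 : ℝ) • x₁)) + θ (f (z, x₂)) = 2 := by
        have := hθ2
        rw [map_add, hsum] at this
        exact_mod_cast this
      have hval2 : θ (f (z, (1 / 2 : ℝ) • x₁)) = (1 / 2) * θ (f (z, 0)) + (1 / 2) * θ (f (z, x₁)) := by
        rw [hn]; simp
      apply le_antisymm
      · calc _ ≤ ‖f (z, 0) + m‖ + ‖f (z, 0)‖ := norm_add_le _ _
          _ = 2 := by
            rw [hu z hz, D.hf.norm_eq _ (norm_left hz (by simp))]; norm_num
      · have h5 := θ.le_opNorm (f (z, 0) + m + f (z, 0))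
        rw [hθ1, one_mul] at h5
        have h6 : θ (f (z, 0) + m + f (z, 0)) =
            (1 / 2) * θ (f (z, x₁)) + (1 / 2) * θ (f (z, x₂)) + θ (f (z, 0)) := by
          rw [hy z hz]; simp
        have h7 : (2 : ℝ) ≤ θ (f (z, 0) + m + f (z, 0)) := by
          rw [h6]; linarith
        exact h7.trans ((le_abs_self _).trans h5)
  set ξ : W := (g (f (z0, 0) + m)).2 with hξ
  have hgy : g (f (z0, 0) + m) = (z0, ξ) := Prod.ext hfst rfl
  have hun : ‖((z0, ξ) : Z × W)‖ = 1 := by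
    have := D.g1 _ (hu z0 hz0)
    rwa [hgy] at this
  have hfy : f (z0, ξ) = f (z0, 0) + m := by
    have := D.g2 _ (hu z0 hz0)
    rwa [hgy] at this
  have hξ1 : ‖ξ‖ ≤ 1 := by
    have := norm_snd_le ((z0, ξ) : Z × W)
    rwa [hun] at this
  refine ⟨ξ, ?_⟩
  rw [D.f_eq hz0 hξ1] at hfy
  exact (add_left_cancel hfy).symm

theorem V_add_mem (D : SI f g) {z0 : Z} (hz0 : ‖z0‖ = 1) (x x' : W) :
    ∃ ξ : W, V f x + V f x' = V f ξ := by
  set s : ℝ := (1 + ‖x‖ + ‖x'‖)⁻¹ with hs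
  have h0 : 0 < s := by positivity
  obtain ⟨h1, h2⟩ := scale_bound x x'
  obtain ⟨ξ, hξ⟩ := D.V_mid hz0 h1 h2
  refine ⟨(2 * s⁻¹) • ξ, ?_⟩
  rw [D.V_smul, ← hξ, D.V_smul, D.V_smul, smul_smul]
  have e : (2 * s⁻¹ * (1 / 2)) • (s • V f x + s • V f x') = (s⁻¹ * s) • (V f x + V f x') := by
    have : 2 * s⁻¹ * (1 / 2) * s = s⁻¹ * s := by ring
    rw [smul_add, smul_smul, smul_smul, smul_add, this]
  rw [e, inv_mul_cancel₀ h0.ne', one_smul]

/-- `V` is linear. -/
theorem V_add (D : SI f g) {z0 : Z} (hz0 : ‖z0‖ = 1) (x x' : W) :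
    V f (x + x') = V f x + V f x' := by
  let H : Submodule ℝ Y :=
    { carrier := Set.range (V f)
      add_mem' := by
        rintro _ _ ⟨a, rfl⟩ ⟨b, rfl⟩
        obtain ⟨ξ, hξ⟩ := D.V_add_mem hz0 a b
        exact ⟨ξ, hξ.symm⟩
      zero_mem' := ⟨0, by simp [V, rad_zero]⟩
      smul_mem' := by
        rintro c _ ⟨a, rfl⟩
        exact ⟨c • a, D.V_smul c a⟩ }
  let F : W → H := fun x => ⟨V f x, ⟨x, rfl⟩⟩
  have hFiso : Isometry F := by
    refine Isometry.of_dist_eq fun a b => ?_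
    rw [Subtype.dist_eq, dist_eq_norm, dist_eq_norm]
    exact D.V_iso hz0 a b
  have hFsurj : Function.Surjective F := by
    rintro ⟨_, ⟨a, rfl⟩⟩
    exact ⟨a, rfl⟩
  let e : W ≃ᵢ H := IsometryEquiv.mk (Equiv.ofBijective F ⟨hFiso.injective, hFsurj⟩) hFiso
  have h0 : e 0 = 0 := by
    apply Subtype.ext
    show V f 0 = 0
    simp [V, rad_zero]
  let L := e.toRealLinearIsometryEquivOfMapZero h0
  have hL : ∀ a, ((L a : H) : Y) = V f a := fun a => rfl
  have h3 : L (x + x') = L x + L x' := L.map_add x x'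
  have h2 : ((L (x + x') : H) : Y) = ((L x + L x' : H) : Y) := congrArg Subtype.val h3
  rw [Submodule.coe_add, hL, hL, hL] at h2
  exact h2

end SI

/-- **Main theorem** with total functions. -/
theorem exists_linear [Nontrivial Z] [Nontrivial W] {f : Z × W → Y} (hf : IsSphereIso f) :
    ∃ T : (Z × W) ≃ₗᵢ[ℝ] Y, ∀ x, ‖x‖ = 1 → T x = f x := by
  obtain ⟨g, hg⟩ := hf.exists_inv
  have D : SI f g := ⟨hf, fun y hy => (hg y hy).1, fun y hy => (hg y hy).2⟩
  have D' := D.swap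
  obtain ⟨z0, hz0⟩ := exists_unit Z
  obtain ⟨w0, hw0⟩ := exists_unit W
  -- the two radial extensions, linear
  let LV : W →ₗ[ℝ] Y :=
    { toFun := SI.V f, map_add' := D.V_add hz0, map_smul' := fun c x => D.V_smul c x }
  let f' : W × Z → Y := fun p => f (p.2, p.1)
  let LA : Z →ₗ[ℝ] Y :=
    { toFun := SI.V f', map_add' := D'.V_add hw0, map_smul' := fun c x => D'.V_smul c x }
  let T0 : (Z × W) →ₗ[ℝ] Y := LA.comp (LinearMap.fst ℝ Z W) + LV.comp (LinearMap.snd ℝ Z W)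
  have hT0 : ∀ p : Z × W, T0 p = SI.V f' p.1 + SI.V f p.2 := fun p => rfl
  have hT : ∀ p : Z × W, ‖p‖ = 1 → T0 p = f p := by
    rintro ⟨a, b⟩ hp
    rw [norm_prod] at hp
    have ha : ‖a‖ ≤ 1 := hp ▸ le_max_left _ _
    have hb : ‖b‖ ≤ 1 := hp ▸ le_max_right _ _
    rw [hT0]
    rcases max_choice ‖a‖ ‖b‖ with h | h
    · have ha1 : ‖a‖ = 1 := by rw [← h]; exact hp
      rw [D.f_eq ha1 hb]
      have : SI.V f' a = f (a, 0) := by
        simp only [SI.V]
        rw [rad_unit _ ha1]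
      simp only [this]
    · have hb1 : ‖b‖ = 1 := by rw [← h]; exact hp
      have h3 : f' (b, a) = f' (b, 0) + SI.V f' a := D'.f_eq hb1 ha
      have h4 : SI.V f b = f (0, b) := by
        simp only [SI.V]
        rw [rad_unit _ hb1]
      have h5 : f' (b, a) = f (a, b) := rfl
      have h6 : f' (b, 0) = f (0, b) := rfl
      simp only
      rw [h4, ← h5, h3, h6, add_comm]
  have hnorm : ∀ p : Z × W, ‖T0 p‖ = ‖p‖ := by
    intro p
    by_cases h0 : p = 0
    · subst h0; simp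
    have h1 := norm_inv_smul h0
    have h2 := hT _ h1
    have e : p = ‖p‖ • (‖p‖⁻¹ • p) := by
      rw [smul_smul, mul_inv_cancel₀ (norm_ne_zero_iff.mpr h0), one_smul]
    conv_lhs => rw [e, map_smul, h2]
    rw [norm_smul, hf.norm_eq _ h1, mul_one, norm_norm]
  have hsurj : Function.Surjective T0 := by
    intro y
    by_cases h0 : y = 0
    · exact ⟨0, by simp [h0]⟩
    obtain ⟨p, hp, hfp⟩ := hf.surj _ (norm_inv_smul h0)
    refine ⟨‖y‖ • p, ?_⟩
    rw [map_smul, hT p hp, hfp, smul_smul, mul_inv_cancel₀ (norm_ne_zero_iff.mpr h0), one_smul]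
  let T1 : (Z × W) →ₗᵢ[ℝ] Y := ⟨T0, hnorm⟩
  exact ⟨LinearIsometryEquiv.ofSurjective T1 hsurj, fun p hp => hT p hp⟩

open Metric in
/-- **Main theorem** in the form of the problem file. -/
theorem sphere_isometry_prod [Nontrivial Z] [Nontrivial W]
    (f : sphere (0 : Z × W) 1 → sphere (0 : Y) 1) (hf : Isometry f)
    (hs : Function.Surjective f) :
    ∃ T : (Z × W) ≃ₗᵢ[ℝ] Y, ∀ x : sphere (0 : Z × W) 1, T (x : Z × W) = (f x : Y) := by
  classical
  have hmemX : ∀ a : Z × W, ‖a‖ = 1 → a ∈ sphere (0 : Z × W) 1 := fun a ha => by simp [ha]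
  have hmemY : ∀ y : Y, ‖y‖ = 1 → y ∈ sphere (0 : Y) 1 := fun y hy => by simp [hy]
  have hnormX : ∀ a : sphere (0 : Z × W) 1, ‖(a : Z × W)‖ = 1 := fun a => by simp
  have hnormY : ∀ y : sphere (0 : Y) 1, ‖(y : Y)‖ = 1 := fun y => by simp
  set g : Z × W → Y := fun a => if h : ‖a‖ = 1 then (f ⟨a, hmemX a h⟩ : Y) else 0 with hg
  have hgv : ∀ a (h : ‖a‖ = 1), g a = f ⟨a, hmemX a h⟩ := fun a h => by simp [hg, h]
  have hfdist : ∀ a b : sphere (0 : Z × W) 1, ‖(f a : Y) - f b‖ = ‖(a : Z × W) - b‖ := by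
    intro a b
    have := hf.dist_eq a b
    simpa [Subtype.dist_eq, dist_eq_norm] using this
  have hG : IsSphereIso g := by
    refine ⟨fun a ha => ?_, fun a b ha hb => ?_, fun y hy => ?_⟩
    · rw [hgv a ha]; exact hnormY _
    · rw [hgv a ha, hgv b hb, hfdist]
    · obtain ⟨a, ha⟩ := hs ⟨y, hmemY y hy⟩
      refine ⟨a, hnormX a, ?_⟩
      rw [hgv a (hnormX a)]
      simp [ha]
  obtain ⟨T, hT⟩ := exists_linear hG
  refine ⟨T, fun x => ?_⟩
  rw [hT x (hnormX x), hgv x (hnormX x)]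

end Vale.Agent.Lib.P084.MSum
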